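import Mathlib

/-!
# The positively homogeneous extension of a map between unit spheres
-/

open Set Metric
open scoped Classical

namespace Vale.Agent.Lib.P084

variable {X Y : Type*} [NormedAddCommGroup X] [NormedSpace ℝ X]
  [NormedAddCommGroup Y] [NormedSpace ℝ Y]

lemma normalize_mem {x : X} (hx : x ≠ 0) : ‖x‖⁻¹ • x ∈ sphere (0 : X) 1 := by
  have h : ‖x‖ ≠ 0 := norm_ne_zero_iff.2 hx
  simp [norm_smul, h]

/-- the positively homogeneous extension of a map between unit spheres -/
noncomputable def hext (f : sphere (0 : X) 1 → sphere (0 : Y) 1) (x : X) : Y :=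
  if h : x = 0 then 0 else ‖x‖ • (f ⟨‖x‖⁻¹ • x, normalize_mem h⟩ : Y)

variable (f : sphere (0 : X) 1 → sphere (0 : Y) 1)

@[simp] lemma hext_zero : hext f 0 = 0 := by simp [hext]

lemma norm_coe_sphere (u : sphere (0 : X) 1) : ‖(u : X)‖ = 1 := by
  simp

lemma hext_smul_sphere {r : ℝ} (hr : 0 ≤ r) (u : sphere (0 : X) 1) :
    hext f (r • (u : X)) = r • (f u : Y) := by
  rcases hr.eq_or_lt with rfl | hr
  · simp
  · have hu : ‖(u : X)‖ = 1 := norm_coe_sphere u
    have hne : r • (u : X) ≠ 0 := by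
      intro h
      have : ‖r • (u : X)‖ = 0 := by rw [h, norm_zero]
      rw [norm_smul, hu, mul_one, Real.norm_eq_abs, abs_of_pos hr] at this
      exact hr.ne' this
    have hn : ‖r • (u : X)‖ = r := by
      rw [norm_smul, hu, mul_one, Real.norm_eq_abs, abs_of_pos hr]
    have hsub : (⟨‖r • (u : X)‖⁻¹ • (r • (u : X)), normalize_mem hne⟩ : sphere (0 : X) 1) = u := by
      apply Subtype.ext
      simp only [hn]
      rw [smul_smul, inv_mul_cancel₀ hr.ne', one_smul]
    rw [hext, dif_neg hne, hsub, hn]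

lemma hext_sphere (u : sphere (0 : X) 1) : hext f (u : X) = (f u : Y) := by
  have := hext_smul_sphere f (zero_le_one) u
  simpa using this

/-- every vector is a nonnegative multiple of a unit vector, or zero -/
lemma exists_polar (x : X) (hx : x ≠ 0) : ∃ u : sphere (0 : X) 1, x = ‖x‖ • (u : X) := by
  refine ⟨⟨‖x‖⁻¹ • x, normalize_mem hx⟩, ?_⟩
  have h : ‖x‖ ≠ 0 := norm_ne_zero_iff.2 hx
  simp [smul_smul, h]

lemma norm_hext (x : X) : ‖hext f x‖ = ‖x‖ := by
  by_cases hx : x = 0
  · simp [hx]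
  · obtain ⟨u, hu⟩ := exists_polar x hx
    rw [hu, hext_smul_sphere f (norm_nonneg x) u, norm_smul, norm_smul, norm_coe_sphere,
      norm_coe_sphere]

lemma hext_smul {c : ℝ} (hc : 0 ≤ c) (x : X) : hext f (c • x) = c • hext f x := by
  by_cases hx : x = 0
  · simp [hx]
  · obtain ⟨u, hu⟩ := exists_polar x hx
    rw [hu, smul_smul, hext_smul_sphere f (mul_nonneg hc (norm_nonneg x)) u,
      hext_smul_sphere f (norm_nonneg x) u, smul_smul]

lemma hext_hext {g : sphere (0 : Y) 1 → sphere (0 : X) 1} (hgf : ∀ u, g (f u) = u) (x : X) :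
    hext g (hext f x) = x := by
  by_cases hx : x = 0
  · simp [hx]
  · obtain ⟨u, hu⟩ := exists_polar x hx
    rw [hu, hext_smul_sphere f (norm_nonneg x) u, hext_smul_sphere g (norm_nonneg x) (f u), hgf]

lemma hext_dist_le (hf : Isometry f) (x y : X) : ‖hext f x - hext f y‖ ≤ 3 * ‖x - y‖ := by
  by_cases hx : x = 0
  · subst hx
    simp only [hext_zero, zero_sub, norm_neg, norm_hext]
    nlinarith [norm_nonneg y]
  by_cases hy : y = 0
  · subst hy
    simp only [hext_zero, sub_zero, norm_hext]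
    nlinarith [norm_nonneg x]
  obtain ⟨u, hu⟩ := exists_polar x hx
  obtain ⟨v, hv⟩ := exists_polar y hy
  set a := ‖x‖ with ha
  set b := ‖y‖ with hb
  have ha0 : 0 ≤ a := norm_nonneg x
  have hb0 : 0 ≤ b := norm_nonneg y
  have hab : |a - b| ≤ ‖x - y‖ := abs_norm_sub_norm_le x y
  have hfuv : ‖(f u : Y) - (f v : Y)‖ = ‖(u : X) - (v : X)‖ := by
    have := hf.dist_eq u v
    rw [Subtype.dist_eq, Subtype.dist_eq, dist_eq_norm, dist_eq_norm] at this
    exact this
  have h1 : hext f x - hext f y = a • ((f u : Y) - (f v : Y)) + (a - b) • (f v : Y) := by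
    rw [hu, hv, hext_smul_sphere f ha0 u, hext_smul_sphere f hb0 v, smul_sub, sub_smul]
    abel
  have h2 : a • ((u : X) - (v : X)) = (x - y) + (b - a) • (v : X) := by
    rw [smul_sub, sub_smul, ← hu, ← hv]
    abel
  have h3 : a * ‖(u : X) - (v : X)‖ ≤ ‖x - y‖ + |a - b| := by
    have : ‖a • ((u : X) - (v : X))‖ = a * ‖(u : X) - (v : X)‖ := by
      rw [norm_smul, Real.norm_eq_abs, abs_of_nonneg ha0]
    rw [← this, h2]
    refine (norm_add_le _ _).trans ?_
    rw [norm_smul, norm_coe_sphere, mul_one, Real.norm_eq_abs, abs_sub_comm]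
  calc ‖hext f x - hext f y‖
      = ‖a • ((f u : Y) - (f v : Y)) + (a - b) • (f v : Y)‖ := by rw [h1]
    _ ≤ ‖a • ((f u : Y) - (f v : Y))‖ + ‖(a - b) • (f v : Y)‖ := norm_add_le _ _
    _ = a * ‖(u : X) - (v : X)‖ + |a - b| := by
        rw [norm_smul, norm_smul, norm_coe_sphere, mul_one, Real.norm_eq_abs, Real.norm_eq_abs,
          abs_of_nonneg ha0, hfuv]
    _ ≤ 3 * ‖x - y‖ := by linarith

lemma continuous_hext (hf : Isometry f) : Continuous (hext f) := by
  have : LipschitzWith 3 (hext f) := by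
    refine LipschitzWith.of_dist_le_mul fun x y => ?_
    rw [dist_eq_norm, dist_eq_norm]
    simpa using hext_dist_le f hf x y
  exact this.continuous

end Vale.Agent.Lib.P084
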