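import Vale.Agent.Lib.P084.Matched
import Vale.Agent.Lib.P084.Homog

/-!
# The Mazur-Ulam property is separably determined
-/

open Set Metric TopologicalSpace

namespace Vale.Agent.Lib.P084

universe u

/-- `f` is the restriction to the unit sphere of a surjective real-linear isometry -/
def ExtendsLinearly {X Y : Type u} [NormedAddCommGroup X] [NormedSpace ℝ X]
    [NormedAddCommGroup Y] [NormedSpace ℝ Y] (f : sphere (0 : X) 1 → sphere (0 : Y) 1) : Prop :=
  ∃ T : X ≃ₗᵢ[ℝ] Y, ∀ x : sphere (0 : X) 1, T (x : X) = (f x : Y)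

/-- the Mazur-Ulam property: every surjective isometry of the unit sphere of `X` onto the unit
sphere of a real Banach space extends linearly -/
def MazurUlam (X : Type u) [NormedAddCommGroup X] [NormedSpace ℝ X] : Prop :=
  ∀ (Y : Type u) [NormedAddCommGroup Y] [NormedSpace ℝ Y] [CompleteSpace Y]
    (f : sphere (0 : X) 1 → sphere (0 : Y) 1),
    Isometry f → Function.Surjective f → ExtendsLinearly f

/-- the Mazur-Ulam property tested against separable real Banach spaces only -/
def MazurUlamSep (X : Type u) [NormedAddCommGroup X] [NormedSpace ℝ X] : Prop :=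
  ∀ (Y : Type u) [NormedAddCommGroup Y] [NormedSpace ℝ Y] [CompleteSpace Y] [SeparableSpace Y]
    (f : sphere (0 : X) 1 → sphere (0 : Y) 1),
    Isometry f → Function.Surjective f → ExtendsLinearly f

section

variable {X Y : Type u} [NormedAddCommGroup X] [NormedSpace ℝ X]
  [NormedAddCommGroup Y] [NormedSpace ℝ Y] [CompleteSpace Y]

/-- on a matched pair of subspaces the homogeneous extension is linear -/
theorem exists_linear_on_matched {f : sphere (0 : X) 1 → sphere (0 : Y) 1}
    {g : sphere (0 : Y) 1 → sphere (0 : X) 1} (hf : Isometry f)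
    (hfg : ∀ w, f (g w) = w)
    {E : Submodule ℝ X} {G : Submodule ℝ Y} (hE : MazurUlamSep E)
    (hGc : IsClosed (G : Set Y)) (hGs : IsSeparable (G : Set Y))
    (hFE : MapsTo (hext f) (E : Set X) (G : Set Y))
    (hHG : MapsTo (hext g) (G : Set Y) (E : Set X)) :
    ∃ T : E ≃ₗᵢ[ℝ] G, ∀ x : E, ((T x : G) : Y) = hext f (x : X) := by
  have : CompleteSpace G := hGc.completeSpace_coe
  have : SeparableSpace G := hGs.separableSpace
  have hnE : ∀ u : sphere (0 : E) 1, ‖((u : E) : X)‖ = 1 := by
    intro u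
    exact norm_coe_sphere u
  let up : sphere (0 : E) 1 → sphere (0 : X) 1 := fun u => ⟨((u : E) : X), by simp [hnE u]⟩
  let fE : sphere (0 : E) 1 → sphere (0 : G) 1 := fun u =>
    ⟨⟨hext f ((u : E) : X), hFE (u : E).2⟩, by
      rw [mem_sphere_zero_iff_norm]
      change ‖hext f ((u : E) : X)‖ = 1
      rw [norm_hext, hnE u]⟩
  have hfE_coe : ∀ u, (((fE u : sphere (0 : G) 1) : G) : Y) = hext f ((u : E) : X) := fun _ => rfl
  have hfE_up : ∀ u, (((fE u : sphere (0 : G) 1) : G) : Y) = (f (up u) : Y) := by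
    intro u
    rw [hfE_coe]
    exact hext_sphere f (up u)
  have hiso : Isometry fE := by
    refine Isometry.of_dist_eq fun u v => ?_
    have h1 : dist (fE u) (fE v) = dist (f (up u)) (f (up v)) := by
      rw [Subtype.dist_eq, Subtype.dist_eq, Subtype.dist_eq, hfE_up, hfE_up]
    rw [h1, hf.dist_eq]
    rfl
  have hsurj : Function.Surjective fE := by
    intro w
    have hw : ‖((w : G) : Y)‖ = 1 := norm_coe_sphere w
    have hx : hext g ((w : G) : Y) ∈ E := hHG (w : G).2
    refine ⟨⟨⟨hext g ((w : G) : Y), hx⟩, ?_⟩, ?_⟩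
    · rw [mem_sphere_zero_iff_norm]
      change ‖hext g ((w : G) : Y)‖ = 1
      rw [norm_hext, hw]
    · apply Subtype.ext
      apply Subtype.ext
      rw [hfE_coe]
      exact hext_hext g hfg _
  obtain ⟨T, hT⟩ := hE G fE hiso hsurj
  refine ⟨T, fun x => ?_⟩
  by_cases hx : x = 0
  · subst hx
    simp
  · obtain ⟨u, hu⟩ := exists_polar x hx
    have h1 : T x = ‖x‖ • (fE u : G) := by
      conv_lhs => rw [hu]
      rw [map_smul, hT]
    have h2 : (x : X) = ‖x‖ • (((u : E)) : X) := by
      conv_lhs => rw [hu]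
      rfl
    rw [h1, Submodule.coe_smul, hfE_coe, ← hext_smul f (norm_nonneg x), ← h2]

/-- **Separable determination of the Mazur-Ulam property.** -/
theorem extendsLinearly_of_club {C : Set (Submodule ℝ X)} (hC : IsClub C)
    (hMU : ∀ E ∈ C, MazurUlamSep E) (f : sphere (0 : X) 1 → sphere (0 : Y) 1)
    (hf : Isometry f) (hs : Function.Surjective f) : ExtendsLinearly f := by
  classical
  let e := Equiv.ofBijective f ⟨hf.injective, hs⟩
  let g : sphere (0 : Y) 1 → sphere (0 : X) 1 := e.symm
  have hfg : ∀ w, f (g w) = w := fun w => e.apply_symm_apply w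
  have hgf : ∀ u, g (f u) = u := fun u => e.symm_apply_apply u
  have hg : Isometry g := by
    refine Isometry.of_dist_eq fun a b => ?_
    rw [← hf.dist_eq, hfg, hfg]
  have hFc := continuous_hext f hf
  have hHc := continuous_hext g hg
  -- local linearity
  have key : ∀ s : Set X, s.Finite → ∃ E : Submodule ℝ X, ∃ G : Submodule ℝ Y,
      ∃ T : E ≃ₗᵢ[ℝ] G, s ⊆ (E : Set X) ∧ ∀ x : E, ((T x : G) : Y) = hext f (x : X) := by
    intro s hsf
    obtain ⟨E, hEC, G, hGc, hGs, hsE, hFE, hHG⟩ := exists_matched hC hFc hHc hsf.isSeparable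
    obtain ⟨T, hT⟩ := exists_linear_on_matched hf hfg (hMU E hEC) hGc hGs hFE hHG
    exact ⟨E, G, T, hsE, hT⟩
  have hadd : ∀ x y, hext f (x + y) = hext f x + hext f y := by
    intro x y
    obtain ⟨E, G, T, hsE, hT⟩ := key {x, y} (by simp)
    have hx : x ∈ E := hsE (by simp)
    have hy : y ∈ E := hsE (by simp)
    have h1 := hT (⟨x, hx⟩ + ⟨y, hy⟩)
    rw [map_add] at h1
    have h2 := hT ⟨x, hx⟩
    have h3 := hT ⟨y, hy⟩
    simp only [Submodule.coe_add] at h1 h2 h3
    rw [← h1, h2, h3]
  have hsmul : ∀ (c : ℝ) x, hext f (c • x) = c • hext f x := by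
    intro c x
    obtain ⟨E, G, T, hsE, hT⟩ := key {x} (by simp)
    have hx : x ∈ E := hsE (by simp)
    have h1 := hT (c • ⟨x, hx⟩)
    rw [map_smul] at h1
    have h2 := hT ⟨x, hx⟩
    simp only [Submodule.coe_smul] at h1 h2
    rw [← h1, h2]
  let L : X →ₗᵢ[ℝ] Y :=
    { toFun := hext f
      map_add' := hadd
      map_smul' := fun c x => by simpa using hsmul c x
      norm_map' := norm_hext f }
  have hLs : Function.Surjective L := fun y => ⟨hext g y, hext_hext g hfg y⟩
  refine ⟨LinearIsometryEquiv.ofSurjective L hLs, fun u => ?_⟩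
  exact hext_sphere f u

theorem mazurUlam_of_club {C : Set (Submodule ℝ X)} (hC : IsClub C)
    (hMU : ∀ E ∈ C, MazurUlamSep E) : MazurUlam X := by
  intro Y _ _ _ f hf hs
  exact extendsLinearly_of_club hC hMU f hf hs

/-- the closed separable subspaces form a club -/
theorem isClub_closed_separable :
    IsClub {E : Submodule ℝ X | IsClosed (E : Set X) ∧ IsSeparable (E : Set X)} where
  sep := fun _ hE => hE.2
  cofinal := fun s hs =>
    ⟨cspan s, ⟨Submodule.isClosed_topologicalClosure _, isSeparable_cspan hs⟩, subset_cspan s⟩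
  union := by
    intro E hmono hE
    refine ⟨Submodule.isClosed_topologicalClosure _, ?_⟩
    have hEcoe : ((⨆ k, E k : Submodule ℝ X) : Set X) = ⋃ k, (E k : Set X) :=
      Submodule.coe_iSup_of_chain ⟨E, hmono⟩
    rw [Submodule.topologicalClosure_coe, hEcoe]
    exact (IsSeparable.iUnion fun k => (hE k).2).closure

end

end Vale.Agent.Lib.P084
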