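import Mathlib

/-!
# Back and forth between separable closed subspaces

Given continuous maps `F : X → Y`, `H : Y → X` between real normed spaces and a family `C` of
subspaces of `X` that is cofinal among separable sets and closed under closures of increasing
unions, every separable subset of `X` lies in a member `E` of `C` for which there is a closed
separable subspace `G` of `Y` with `F E ⊆ G` and `H G ⊆ E`.
-/

open Set TopologicalSpace

namespace Vale.Agent.Lib.P084

variable {X Y : Type*} [NormedAddCommGroup X] [NormedSpace ℝ X]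
  [NormedAddCommGroup Y] [NormedSpace ℝ Y]

/-- closed span -/
noncomputable def cspan (s : Set Y) : Submodule ℝ Y := (Submodule.span ℝ s).topologicalClosure

lemma subset_cspan (s : Set Y) : s ⊆ (cspan s : Set Y) :=
  fun _ hx => Submodule.le_topologicalClosure _ (Submodule.subset_span hx)

lemma cspan_mono {s t : Set Y} (h : s ⊆ t) : cspan s ≤ cspan t :=
  Submodule.topologicalClosure_mono (Submodule.span_mono h)

lemma isSeparable_cspan {s : Set Y} (hs : IsSeparable s) : IsSeparable (cspan s : Set Y) := by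
  have h := (hs.span (R := ℝ)).closure
  simpa [cspan, Submodule.topologicalClosure_coe] using h

/-- A family of subspaces that is cofinal among separable sets, consists of separable subspaces
and is closed under closures of increasing unions. -/
structure IsClub (C : Set (Submodule ℝ X)) : Prop where
  sep : ∀ E ∈ C, IsSeparable (E : Set X)
  cofinal : ∀ s : Set X, IsSeparable s → ∃ E ∈ C, s ⊆ (E : Set X)
  union : ∀ E : ℕ → Submodule ℝ X, Monotone E → (∀ k, E k ∈ C) →
    (⨆ k, E k).topologicalClosure ∈ C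

theorem exists_matched {C : Set (Submodule ℝ X)} (hC : IsClub C) {F : X → Y} {H : Y → X}
    (hF : Continuous F) (hH : Continuous H) {s : Set X} (hs : IsSeparable s) :
    ∃ E ∈ C, ∃ G : Submodule ℝ Y, IsClosed (G : Set Y) ∧ IsSeparable (G : Set Y) ∧
      s ⊆ (E : Set X) ∧ MapsTo F (E : Set X) (G : Set Y) ∧ MapsTo H (G : Set Y) (E : Set X) := by
  classical
  -- one step of the construction
  have step : ∀ E : {E : Submodule ℝ X // E ∈ C}, ∃ E' : {E : Submodule ℝ X // E ∈ C},
      (E.1 : Set X) ∪ H '' (cspan (F '' (E.1 : Set X)) : Set Y) ⊆ (E'.1 : Set X) := by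
    intro E
    have h1 : IsSeparable ((E.1 : Set X) ∪ H '' (cspan (F '' (E.1 : Set X)) : Set Y)) :=
      (hC.sep _ E.2).union ((isSeparable_cspan ((hC.sep _ E.2).image hF)).image hH)
    obtain ⟨E', hE', hsub⟩ := hC.cofinal _ h1
    exact ⟨⟨E', hE'⟩, hsub⟩
  choose nxt hnxt using step
  obtain ⟨E0, hE0, hsE0⟩ := hC.cofinal s hs
  let Es : ℕ → {E : Submodule ℝ X // E ∈ C} := fun k => Nat.rec ⟨E0, hE0⟩ (fun _ E => nxt E) k
  have hEs_succ : ∀ k, Es (k + 1) = nxt (Es k) := fun k => rfl
  let E : ℕ → Submodule ℝ X := fun k => (Es k).1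
  let G : ℕ → Submodule ℝ Y := fun k => cspan (F '' (E k : Set X))
  have hstep1 : ∀ k, E k ≤ E (k + 1) := by
    intro k x hx
    have := hnxt (Es k) (Or.inl hx)
    simpa [E, hEs_succ] using this
  have hstep2 : ∀ k, MapsTo H (G k : Set Y) (E (k + 1) : Set X) := by
    intro k y hy
    have := hnxt (Es k) (Or.inr ⟨y, hy, rfl⟩)
    simpa [E, hEs_succ] using this
  have hEmono : Monotone E := monotone_nat_of_le_succ hstep1
  have hGmono : Monotone G := fun a b hab => cspan_mono (image_mono (hEmono hab))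
  have hEcoe : ((⨆ k, E k : Submodule ℝ X) : Set X) = ⋃ k, (E k : Set X) :=
    Submodule.coe_iSup_of_chain ⟨E, hEmono⟩
  have hGcoe : ((⨆ k, G k : Submodule ℝ Y) : Set Y) = ⋃ k, (G k : Set Y) :=
    Submodule.coe_iSup_of_chain ⟨G, hGmono⟩
  refine ⟨(⨆ k, E k).topologicalClosure, hC.union E hEmono (fun k => (Es k).2),
    (⨆ k, G k).topologicalClosure, Submodule.isClosed_topologicalClosure _, ?_, ?_, ?_, ?_⟩
  · rw [Submodule.topologicalClosure_coe, hGcoe]
    exact (IsSeparable.iUnion fun k =>
      isSeparable_cspan ((hC.sep _ (Es k).2).image hF)).closure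
  · intro x hx
    exact Submodule.le_topologicalClosure _ (Submodule.mem_iSup_of_mem 0 (hsE0 hx))
  · intro x hx
    rw [SetLike.mem_coe, ← SetLike.mem_coe, Submodule.topologicalClosure_coe, hEcoe] at hx
    have h1 : F x ∈ closure (F '' ⋃ k, (E k : Set X)) := mem_closure_image hF.continuousAt hx
    rw [SetLike.mem_coe, ← SetLike.mem_coe, Submodule.topologicalClosure_coe, hGcoe]
    refine closure_mono ?_ h1
    rintro _ ⟨z, hz, rfl⟩
    obtain ⟨k, hk⟩ := mem_iUnion.1 hz
    exact mem_iUnion.2 ⟨k, subset_cspan _ ⟨z, hk, rfl⟩⟩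
  · intro y hy
    rw [SetLike.mem_coe, ← SetLike.mem_coe, Submodule.topologicalClosure_coe, hGcoe] at hy
    have h1 : H y ∈ closure (H '' ⋃ k, (G k : Set Y)) := mem_closure_image hH.continuousAt hy
    rw [SetLike.mem_coe, ← SetLike.mem_coe, Submodule.topologicalClosure_coe, hEcoe]
    refine closure_mono ?_ h1
    rintro _ ⟨z, hz, rfl⟩
    obtain ⟨k, hk⟩ := mem_iUnion.1 hz
    exact mem_iUnion.2 ⟨k + 1, hstep2 k hk⟩

end Vale.Agent.Lib.P084
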